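import Vale.Agent.P034.Degree

/-!
# P034: fractional covers whose support hypergraph has bounded degree

If a fractional cover `g` of a family `F` has cost at most `1/2` at `p` and every element of the
ground set lies in at most `d` sets `S` with `g S ≠ 0`, then `F` has an integral cover of cost at
most `1/2` at `p / (28 + 6 d p)`.
-/

open Finset in
theorem Vale.Agent.Results.P034.BoundedDegreeSupport.result
    {X : Type*} [Fintype X] [DecidableEq X] (d : ℕ)
    (F : Finset (Finset X)) (g : Finset X → ℝ) (p : ℝ) (hp0 : 0 ≤ p) (hp1 : p ≤ 1)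
    (hg0 : ∀ S, 0 ≤ g S)
    (hdeg : ∀ (x : X) (A : Finset (Finset X)), (∀ S ∈ A, g S ≠ 0 ∧ x ∈ S) → A.card ≤ d)
    (hcov : ∀ H ∈ F, 1 ≤ ∑ S ∈ H.powerset, g S)
    (hcost : ∑ S : Finset X, g S * p ^ S.card ≤ 1 / 2) :
    ∃ G : Finset (Finset X), (∀ H ∈ F, ∃ S ∈ G, S ⊆ H) ∧
      ∑ S ∈ G, (p / (28 + 6 * (d : ℝ) * p)) ^ S.card ≤ 1 / 2 := by
  classical
  exact Vale.Agent.P034.main_degree d F g p hp0 hp1 hg0
    (fun x => hdeg x _ (fun S hS => (mem_filter.mp hS).2)) hcov hcost
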