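import Vale.Agent.P064F.Talagrand
import Vale.Agent.P034.Degree
import Vale.Agent.P034.Main

/-!
# P034: three constant-factor cases of the comparison of fractional and integral covers

(A) `F` = all graphs on `[n]` containing a copy of a fixed forest `H` (ground set = edges of the
    complete graph): every fractional cover of cost at most `1/2` at `p` can be replaced by an
    integral cover of cost at most `1/2` at `p / (6 * 10^7)`.
(B) `F` arbitrary, the fractional cover is positive only on the empty set and on connected vertex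
    sets of a graph of maximum degree at most `Δ` on the ground set: integral cover at
    `p / (28 + 3 Δ p)`.
(C) `F` arbitrary, every element of the ground set lies in at most `d` sets of positive weight:
    integral cover at `p / (28 + 6 d p)`.
-/

namespace Vale.Agent.Results.P034.Combined

open Finset

open Classical in
theorem result.{u} :
    (∀ (n : ℕ) (H : SimpleGraph (Fin n)), H.IsAcyclic →
      ∀ (g : SimpleGraph (Fin n) → ℝ) (p : ℝ), 0 ≤ p → (∀ S, 0 ≤ g S) →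
      (∀ G : SimpleGraph (Fin n), (∃ G' : SimpleGraph (Fin n), G' ≤ G ∧ Nonempty (G' ≃g H)) →
        1 ≤ ∑ S ∈ univ.filter (fun S : SimpleGraph (Fin n) => S ≤ G), g S) →
      ∑ S : SimpleGraph (Fin n), g S * p ^ S.edgeSet.ncard ≤ 1 / 2 →
      ∃ Gs : Finset (SimpleGraph (Fin n)),
        (∀ G : SimpleGraph (Fin n), (∃ G' : SimpleGraph (Fin n), G' ≤ G ∧ Nonempty (G' ≃g H)) →
          ∃ S ∈ Gs, S ≤ G) ∧
        ∑ S ∈ Gs, (p / 60000000) ^ S.edgeSet.ncard ≤ 1 / 2) ∧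
    (∀ (X : Type u) [Fintype X] [DecidableEq X] (Γ : SimpleGraph X) [DecidableRel Γ.Adj]
      (Δ : ℕ), (∀ v, Γ.degree v ≤ Δ) →
      ∀ (F : Finset (Finset X)) (g : Finset X → ℝ) (p : ℝ), 0 ≤ p → p ≤ 1 → (∀ S, 0 ≤ g S) →
      (∀ S, g S ≠ 0 → S = ∅ ∨ (Γ.induce (S : Set X)).Connected) →
      (∀ H ∈ F, 1 ≤ ∑ S ∈ H.powerset, g S) →
      ∑ S : Finset X, g S * p ^ S.card ≤ 1 / 2 →
      ∃ G : Finset (Finset X), (∀ H ∈ F, ∃ S ∈ G, S ⊆ H) ∧
        ∑ S ∈ G, (p / (28 + 3 * (Δ : ℝ) * p)) ^ S.card ≤ 1 / 2) ∧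
    (∀ (X : Type u) [Fintype X] [DecidableEq X] (d : ℕ)
      (F : Finset (Finset X)) (g : Finset X → ℝ) (p : ℝ), 0 ≤ p → p ≤ 1 → (∀ S, 0 ≤ g S) →
      (∀ (x : X) (A : Finset (Finset X)), (∀ S ∈ A, g S ≠ 0 ∧ x ∈ S) → A.card ≤ d) →
      (∀ H ∈ F, 1 ≤ ∑ S ∈ H.powerset, g S) →
      ∑ S : Finset X, g S * p ^ S.card ≤ 1 / 2 →
      ∃ G : Finset (Finset X), (∀ H ∈ F, ∃ S ∈ G, S ⊆ H) ∧
        ∑ S ∈ G, (p / (28 + 6 * (d : ℝ) * p)) ^ S.card ≤ 1 / 2) := by
  refine ⟨?_, ?_, ?_⟩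
  · intro n H hA g p hp0 hg0 hcov hcost
    exact Vale.Agent.P064F.forest_talagrand n H hA g p hp0 hg0 hcov hcost
  · intro X _ _ Γ _ Δ hΔ F g p hp0 hp1 hg0 hsupp hcov hcost
    exact Vale.Agent.P034.main_connected Γ Δ hΔ F g p hp0 hp1 hg0 hsupp hcov hcost
  · intro X _ _ d F g p hp0 hp1 hg0 hdeg hcov hcost
    exact Vale.Agent.P034.main_degree d F g p hp0 hp1 hg0
      (fun x => hdeg x _ (fun S hS => (mem_filter.mp hS).2)) hcov hcost

end Vale.Agent.Results.P034.Combined
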