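import Vale.Agent.P034.Main

/-!
# P034: fractional covers supported on connected sets of a bounded degree graph

If a fractional cover `g` of a family `F` of subsets of a finite set `X` has cost at most `1/2`
at `p` and is positive only on the empty set and on vertex sets inducing connected subgraphs of a
graph `Γ` on `X` of maximum degree at most `Δ`, then `F` has an integral cover of cost at most
`1/2` at `p / (28 + 3 Δ p)`.
-/

open Finset in
theorem Vale.Agent.Results.P034.ConnectedSupport.result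
    {X : Type*} [Fintype X] [DecidableEq X] (Γ : SimpleGraph X) [DecidableRel Γ.Adj]
    (Δ : ℕ) (hΔ : ∀ v, Γ.degree v ≤ Δ)
    (F : Finset (Finset X)) (g : Finset X → ℝ) (p : ℝ) (hp0 : 0 ≤ p) (hp1 : p ≤ 1)
    (hg0 : ∀ S, 0 ≤ g S)
    (hsupp : ∀ S, g S ≠ 0 → S = ∅ ∨ (Γ.induce (S : Set X)).Connected)
    (hcov : ∀ H ∈ F, 1 ≤ ∑ S ∈ H.powerset, g S)
    (hcost : ∑ S : Finset X, g S * p ^ S.card ≤ 1 / 2) :
    ∃ G : Finset (Finset X), (∀ H ∈ F, ∃ S ∈ G, S ⊆ H) ∧
      ∑ S ∈ G, (p / (28 + 3 * (Δ : ℝ) * p)) ^ S.card ≤ 1 / 2 :=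
  Vale.Agent.P034.main_connected Γ Δ hΔ F g p hp0 hp1 hg0 hsupp hcov hcost
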