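import Vale.Agent.P064F.Talagrand

/-!
# P034: fractional versus integral expectation thresholds for containing a given forest

Ground set `X` = the edge set of the complete graph on `[n]`, so that subsets of `X` are the graphs on
`[n]` and `|S|` is the number of edges.  `F` = the increasing family of all graphs on `[n]` containing a
copy of a fixed forest `H`.  Every fractional cover of `F` of cost at most `1/2` at `p` can be replaced
by an integral cover of cost at most `1/2` at `p / (6 * 10^7)`.
-/

namespace Vale.Agent.Results.P034.ForestContainment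

open Finset

open Classical in
theorem result (n : ℕ) (H : SimpleGraph (Fin n)) (hA : H.IsAcyclic)
    (g : SimpleGraph (Fin n) → ℝ) (p : ℝ) (hp0 : 0 ≤ p) (hg0 : ∀ S, 0 ≤ g S)
    (hcov : ∀ G : SimpleGraph (Fin n), (∃ G' : SimpleGraph (Fin n), G' ≤ G ∧ Nonempty (G' ≃g H)) →
      1 ≤ ∑ S ∈ univ.filter (fun S : SimpleGraph (Fin n) => S ≤ G), g S)
    (hcost : ∑ S : SimpleGraph (Fin n), g S * p ^ S.edgeSet.ncard ≤ 1 / 2) :
    ∃ Gs : Finset (SimpleGraph (Fin n)),
      (∀ G : SimpleGraph (Fin n), (∃ G' : SimpleGraph (Fin n), G' ≤ G ∧ Nonempty (G' ≃g H)) →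
        ∃ S ∈ Gs, S ≤ G) ∧
      ∑ S ∈ Gs, (p / 60000000) ^ S.edgeSet.ncard ≤ 1 / 2 :=
  Vale.Agent.P064F.forest_talagrand n H hA g p hp0 hg0 hcov hcost

end Vale.Agent.Results.P034.ForestContainment
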